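import Vale.Agent.Lib.P154.PChain.BF.R0_s

set_option linter.all false

namespace Vale.Agent.Lib.P154.PChain.BF.S0

open Vale.Agent.Lib.P154.Chain

set_option maxRecDepth 10000000 in
def run_ok0 : runP g l0 (vPacked vl) wp Tp Tx Te Tz 3 cp0 = rc0 := by
  decide +kernel

set_option maxRecDepth 10000000 in
def run_ok1 : runP g l0 (vPacked vl) wp Tp Tx Te Tz 1 rc0 = rc1 := by
  decide +kernel

end Vale.Agent.Lib.P154.PChain.BF.S0
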