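import Vale.Agent.Lib.P154.PChain.BF.R8_1

set_option linter.all false

namespace Vale.Agent.Lib.P154.PChain.BF.S8

open Vale.Agent.Lib.P154.Chain

set_option maxRecDepth 10000000 in
def run_ok16 : runP g l4 (vPacked vl) wp Tp Tx Te Tz 2 rc15 = rc16 := by
  decide +kernel

set_option maxRecDepth 10000000 in
def run_ok17 : runP g l4 (vPacked vl) wp Tp Tx Te Tz 1 rc16 = rc17 := by
  decide +kernel

end Vale.Agent.Lib.P154.PChain.BF.S8
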